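import Vale.Agent.P181.H303.Spec

/-!
P181, package of 303 (`K` a power of `a`): row AR, arithmetic of exponents.
-/

set_option autoImplicit false

namespace Vale.Agent.P181.H659

open Finset

/-- Below capacities `c` with total at least `d` there is a family with total exactly `d`. -/
theorem exists_le_sum_eq {ι : Type*} [Fintype ι] [DecidableEq ι] (c : ι → ℕ) (d : ℕ)
    (h : d ≤ ∑ t, c t) : ∃ α : ι → ℕ, (∀ t, α t ≤ c t) ∧ ∑ t, α t = d := by
  induction d with
  | zero => exact ⟨fun _ => 0, fun _ => Nat.zero_le _, by simp⟩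
  | succ d ih =>
    obtain ⟨α, h1, h2⟩ := ih (by omega)
    have h3 : ∃ t, α t < c t := by
      by_contra hc
      push Not at hc
      have h4 : ∑ t, c t ≤ ∑ t, α t := Finset.sum_le_sum fun t _ => hc t
      omega
    obtain ⟨t₀, ht₀⟩ := h3
    refine ⟨fun t => α t + if t = t₀ then 1 else 0, fun t => ?_, ?_⟩
    · by_cases htt : t = t₀
      · subst htt
        simp only [if_pos]
        omega
      · simp only [if_neg htt]
        have := h1 t
        omega
    · rw [Finset.sum_add_distrib, h2]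
      simp

/-- Total of the rounded down quotients. -/
theorem sum_div_ge {ι : Type*} [Fintype ι] (μ : ι → ℕ) (m B : ℕ) (hm : 0 < m)
    (h : (B + Fintype.card ι) * m ≤ ∑ t, μ t) : B ≤ ∑ t, μ t / m := by
  have h1 : ∀ t, μ t ≤ m * (μ t / m) + m := fun t => by
    have h2 := Nat.div_add_mod (μ t) m
    have h3 := Nat.mod_lt (μ t) hm
    omega
  have h2 : ∑ t, μ t ≤ ∑ t, (m * (μ t / m) + m) := Finset.sum_le_sum fun t _ => h1 t
  rw [Finset.sum_add_distrib, ← Finset.mul_sum, Finset.sum_const, Finset.card_univ,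
    smul_eq_mul] at h2
  have h3 : (B + Fintype.card ι) * m ≤ (∑ t, μ t / m + Fintype.card ι) * m := by
    calc (B + Fintype.card ι) * m ≤ ∑ t, μ t := h
      _ ≤ m * ∑ t, μ t / m + Fintype.card ι * m := h2
      _ = (∑ t, μ t / m + Fintype.card ι) * m := by ring
  have h4 := Nat.le_of_mul_le_mul_right h3 hm
  omega

theorem rowAR : H303.RowAR := by
  intro s q d k τ hs hq hd hk μ hμ hbig
  have hsq : 0 < s * q := Nat.mul_pos hs hq
  -- the `(s q - 1)`-th powers
  have hc1 : d ≤ ∑ t, μ t / (s * q) := by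
    apply sum_div_ge μ (s * q) d hsq
    rw [Fintype.card_fin]
    exact hbig
  obtain ⟨α, hα, hαs⟩ := exists_le_sum_eq _ d hc1
  have hα' : ∀ t, s * q * α t ≤ μ t := fun t =>
    le_trans (Nat.mul_le_mul_left _ (hα t)) (Nat.mul_div_le _ _)
  have hα2 : ∀ t, (s * q - 1) * α t ≤ μ t := fun t =>
    le_trans (Nat.mul_le_mul_right _ (Nat.sub_le _ _)) (hα' t)
  -- what is left
  obtain ⟨ν, hν⟩ : ∃ ν : Fin τ → ℕ, ∀ t, μ t = (s * q - 1) * α t + ν t :=
    ⟨fun t => μ t - (s * q - 1) * α t, fun t => (Nat.add_sub_cancel' (hα2 t)).symm⟩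
  have hνs : ∑ t, μ t = (s * q - 1) * d + ∑ t, ν t := by
    rw [← hαs, Finset.mul_sum, ← Finset.sum_add_distrib]
    exact Finset.sum_congr rfl fun t _ => hν t
  obtain ⟨B, hB⟩ : ∃ B, k = s * d + B := ⟨k - s * d, by omega⟩
  obtain ⟨e, he⟩ : ∃ e, s * q = e + 1 := ⟨s * q - 1, by omega⟩
  have hνq : ∑ t, ν t + (s - 1) * (s - 1) = q * B + d := by
    have h1 : (s * q - 1) * d + ∑ t, ν t + (s - 1) * (s - 1) = q * (s * d + B) := by
      rw [← hνs, hμ, hB]
    have h2 : q * (s * d + B) = (s * q) * d + q * B := by ring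
    rw [h2, he, Nat.add_sub_cancel] at h1
    have h3 : (e + 1) * d = e * d + d := by ring
    omega
  have hc2 : B ≤ ∑ t, ν t / q := by
    apply sum_div_ge ν q B hq
    rw [Fintype.card_fin]
    have h3 : (B + τ) * q = q * B + τ * q := by ring
    omega
  obtain ⟨β, hβ, hβs⟩ := exists_le_sum_eq _ B hc2
  have hβ' : ∀ t, q * β t ≤ ν t := fun t =>
    le_trans (Nat.mul_le_mul_left _ (hβ t)) (Nat.mul_div_le _ _)
  obtain ⟨ρ, hρ⟩ : ∃ ρ : Fin τ → ℕ, ∀ t, ν t = q * β t + ρ t :=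
    ⟨fun t => ν t - q * β t, fun t => (Nat.add_sub_cancel' (hβ' t)).symm⟩
  have hρs : ∑ t, ν t = q * B + ∑ t, ρ t := by
    rw [← hβs, Finset.mul_sum, ← Finset.sum_add_distrib]
    exact Finset.sum_congr rfl fun t _ => hρ t
  refine ⟨α, β, ρ, fun t => ?_, hαs, ?_, ?_⟩
  · rw [hν t, hρ t]
    ring
  · rw [hβs, hB]
    ring
  · omega

end Vale.Agent.P181.H659
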